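import Vale.Agent.P069.Strong
import Vale.Agent.P069.Defs2

namespace Vale.Agent.Results.P069.SeparableTree

open Vale.Agent.P069

/-- There is a real infinite-dimensional separable reflexive Banach space whose norm is
asymptotically midpoint uniformly convex (with modulus at least `t ^ 4 / 65536` on `(0, 1]`) but
which has no equivalent asymptotically uniformly convex norm. -/
theorem result : ∃ (E : Type) (_ : NormedAddCommGroup E) (_ : NormedSpace ℝ E),
    CompleteSpace E ∧ TopologicalSpace.SeparableSpace E ∧ ¬ FiniteDimensional ℝ E ∧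
      IsReflexiveSpace E ∧
      AMUC (fun x : E => ‖x‖) ∧
      (∀ t : ℝ, 0 < t → t ≤ 1 → ((t ^ 4 / 65536 : ℝ) : EReal) ≤ amucMod (fun x : E => ‖x‖) t) ∧
      ∀ N : E → ℝ, IsEquivNorm N → ¬ AUC N :=
  ⟨X, inferInstance, inferInstance, inferInstance, separable, not_fd, reflexive, amuc_norm,
    fun _ ht ht1 => amuc_quant ht ht1, fun _ hN => no_auc hN⟩

end Vale.Agent.Results.P069.SeparableTree
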