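import Vale.Agent.P069.Infinite

namespace Vale.Agent.Results.P069.TreeSpace

open Vale.Agent.P069

/-- There is a real infinite-dimensional Banach space whose norm is asymptotically midpoint
uniformly convex but which has no equivalent asymptotically uniformly convex norm. -/
theorem result : ∃ (E : Type) (_ : NormedAddCommGroup E) (_ : NormedSpace ℝ E),
    CompleteSpace E ∧ ¬ FiniteDimensional ℝ E ∧ AMUC (fun x : E => ‖x‖) ∧
      ∀ N : E → ℝ, IsEquivNorm N → ¬ AUC N :=
  ⟨X, inferInstance, inferInstance, inferInstance, not_fd, amuc_norm, fun _ hN => no_auc hN⟩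

end Vale.Agent.Results.P069.TreeSpace
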